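import Mathlib

/-!
# The trilinear Hilbert transform (slopes 1,2,3): definitions

Plain definitions matching the problem file P141.
-/

open MeasureTheory Filter Topology
open scoped ENNReal NNReal SchwartzMap

namespace Vale.Agent.P141

/-- The truncation `T_{ε,R}(f₁,f₂,f₃)(x) = ∫_{ε<|t|<R} f₁(x-t) f₂(x-2t) f₃(x-3t) dt/t`. -/
noncomputable def truncatedTHT (f₁ f₂ f₃ : ℝ → ℂ) (ε R x : ℝ) : ℂ :=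
  ∫ t in {t : ℝ | ε < |t| ∧ |t| < R}, f₁ (x - t) * f₂ (x - 2 * t) * f₃ (x - 3 * t) / (t : ℂ)

/-- The trilinear Hilbert transform: the limit of the truncations as `ε → 0⁺` and `R → ∞`. -/
noncomputable def tht (f₁ f₂ f₃ : ℝ → ℂ) (x : ℝ) : ℂ :=
  limUnder (𝓝[>] (0 : ℝ) ×ˢ atTop) (fun q : ℝ × ℝ => truncatedTHT f₁ f₂ f₃ q.1 q.2 x)

/-- Hölder tuples: `1 < p₁,p₂,p₃ ≤ ∞`, `0 < r < ∞`, `1/r = 1/p₁ + 1/p₂ + 1/p₃`. -/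
def IsHolderTuple (p₁ p₂ p₃ r : ℝ≥0∞) : Prop :=
  1 < p₁ ∧ 1 < p₂ ∧ 1 < p₃ ∧ 0 < r ∧ r < ∞ ∧ r⁻¹ = p₁⁻¹ + p₂⁻¹ + p₃⁻¹

/-- `T` is bounded at `(p₁,p₂,p₃,r)`: `‖T(f₁,f₂,f₃)‖_r ≤ C ‖f₁‖_{p₁} ‖f₂‖_{p₂} ‖f₃‖_{p₃}` for all
Schwartz functions `f₁,f₂,f₃`, with a finite constant `C`. -/
def THTBoundedAt (p₁ p₂ p₃ r : ℝ≥0∞) : Prop :=
  ∃ C : ℝ≥0, ∀ f₁ f₂ f₃ : 𝓢(ℝ, ℂ),
    eLpNorm (tht f₁ f₂ f₃) r volume ≤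
      C * eLpNorm f₁ p₁ volume * eLpNorm f₂ p₂ volume * eLpNorm f₃ p₃ volume

end Vale.Agent.P141
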