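import Vale.Agent.P141.Norms

/-!
# Digit systems and the necessary condition for boundedness
-/

open MeasureTheory Filter Topology Set
open scoped ENNReal NNReal SchwartzMap ContDiff

namespace Vale.Agent.P141

/-- `digitSum B α k y = ∑_{j<k} α (j-th base-B digit of y) B^j`. -/
def digitSum (B : ℕ) (α : ℕ → ℤ) : ℕ → ℕ → ℤ
  | 0, _ => 0
  | k + 1, y => α (y % B) + B * digitSum B α k (y / B)

/-- The set of values of `digitSum B α k` on `[0, B^k)`. -/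
def digitSet (B : ℕ) (α : ℕ → ℤ) (k : ℕ) : Finset ℤ :=
  (Finset.range (B ^ k)).image (digitSum B α k)

lemma card_digitSet_le {B : ℕ} (hB : 0 < B) (α : ℕ → ℤ) (k : ℕ) :
    (digitSet B α k).card ≤ ((Finset.range B).image α).card ^ k := by
  classical
  induction k with
  | zero => simp [digitSet]
  | succ k ih =>
    have hsub : digitSet B α (k + 1) ⊆
        Finset.image₂ (fun d e : ℤ => d + B * e) ((Finset.range B).image α) (digitSet B α k) := by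
      intro z hz
      obtain ⟨y, hy, rfl⟩ := Finset.mem_image.mp hz
      refine Finset.mem_image₂.mpr ⟨α (y % B), ?_, digitSum B α k (y / B), ?_, rfl⟩
      · exact Finset.mem_image_of_mem _ (Finset.mem_range.mpr (Nat.mod_lt _ hB))
      · refine Finset.mem_image_of_mem _ (Finset.mem_range.mpr ?_)
        have hy' := Finset.mem_range.mp hy
        rw [pow_succ, mul_comm] at hy'
        exact Nat.div_lt_of_lt_mul hy'
    calc (digitSet B α (k + 1)).card ≤ _ := Finset.card_le_card hsub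
      _ ≤ ((Finset.range B).image α).card * (digitSet B α k).card := Finset.card_image₂_le _ _ _
      _ ≤ ((Finset.range B).image α).card * ((Finset.range B).image α).card ^ k := by gcongr
      _ = _ := by rw [pow_succ, mul_comm]

lemma digitSum_rel {B : ℕ} (hB : 0 < B) {α₁ α₂ α₃ : ℕ → ℤ}
    (h1 : ∀ ρ < B, α₁ ρ - 2 * α₂ ρ + α₃ ρ = 0) (k y : ℕ) :
    digitSum B α₁ k y - 2 * digitSum B α₂ k y + digitSum B α₃ k y = 0 := by
  induction k generalizing y with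
  | zero => simp [digitSum]
  | succ k ih =>
    simp only [digitSum]
    have h := h1 (y % B) (Nat.mod_lt _ hB)
    have h' := ih (y / B)
    linear_combination h + (B : ℤ) * h'

lemma digitSum_fourth {B : ℕ} (hB : 0 < B) {α₁ α₂ : ℕ → ℤ}
    (h2 : ∀ ρ < B, 2 * α₁ ρ - α₂ ρ = ρ) (k : ℕ) {y : ℕ} (hy : y < B ^ k) :
    2 * digitSum B α₁ k y - digitSum B α₂ k y = y := by
  induction k generalizing y with
  | zero =>
    have : y = 0 := by simpa using hy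
    simp [digitSum, this]
  | succ k ih =>
    simp only [digitSum]
    have hy' : y / B < B ^ k := by
      rw [pow_succ, mul_comm] at hy
      exact Nat.div_lt_of_lt_mul hy
    have h := h2 (y % B) (Nat.mod_lt _ hB)
    have h' := ih hy'
    have hdiv : ((y % B : ℕ) : ℤ) + (B : ℤ) * ((y / B : ℕ) : ℤ) = y := by
      exact_mod_cast Nat.mod_add_div y B
    linear_combination h + (B : ℤ) * h' + hdiv

lemma digitSum_abs_le {B : ℕ} (hB : 2 ≤ B) {α : ℕ → ℤ} {K : ℤ} (hK0 : 0 ≤ K)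
    (hK : ∀ ρ < B, |α ρ| ≤ K) (k y : ℕ) :
    |digitSum B α k y| ≤ K * ((B : ℤ) ^ k - 1) := by
  induction k generalizing y with
  | zero => simp [digitSum]
  | succ k ih =>
    simp only [digitSum]
    have hB0 : 0 < B := by omega
    have h := hK (y % B) (Nat.mod_lt _ hB0)
    have h' := ih (y / B)
    have hBZ : (2 : ℤ) ≤ B := by exact_mod_cast hB
    have hBnn : (0 : ℤ) ≤ B := by omega
    calc |α (y % B) + B * digitSum B α k (y / B)|
        ≤ |α (y % B)| + |(B : ℤ) * digitSum B α k (y / B)| := abs_add_le _ _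
      _ = |α (y % B)| + (B : ℤ) * |digitSum B α k (y / B)| := by
          rw [abs_mul, abs_of_nonneg hBnn]
      _ ≤ K + (B : ℤ) * (K * ((B : ℤ) ^ k - 1)) := by gcongr
      _ ≤ K * ((B : ℤ) ^ (k + 1) - 1) := by
          have : K * ((B : ℤ) ^ (k + 1) - 1) - (K + (B : ℤ) * (K * ((B : ℤ) ^ k - 1)))
              = K * ((B : ℤ) - 2) := by ring
          have h3 : 0 ≤ K * ((B : ℤ) - 2) := mul_nonneg hK0 (by omega)
          linarith

/-- The sets at level `k` of a digit system, translated so that `a₁ - a₂ ≥ 1` throughout. -/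
lemma exists_level_sets {B : ℕ} (hB : 2 ≤ B) {α₁ α₂ α₃ : ℕ → ℤ}
    (h1 : ∀ ρ < B, α₁ ρ - 2 * α₂ ρ + α₃ ρ = 0) (h2 : ∀ ρ < B, 2 * α₁ ρ - α₂ ρ = ρ)
    {K : ℤ} (hK0 : 0 ≤ K) (hK : ∀ ρ < B, |α₁ ρ| ≤ K ∧ |α₂ ρ| ≤ K) (k : ℕ) :
    ∃ (E₁ E₂ E₃ X : Finset ℤ) (L : ℝ), 0 < L + 1 ∧ L + 1 ≤ (4 * (K : ℝ) + 2) * (B : ℝ) ^ k ∧
      (∀ a₁ ∈ E₁, ∀ a₂ ∈ E₂, 1 ≤ (a₁ : ℝ) - a₂ ∧ (a₁ : ℝ) - a₂ ≤ L) ∧
      (∀ x ∈ X, ∃ a₁ ∈ E₁, ∃ a₂ ∈ E₂, ∃ a₃ ∈ E₃, a₁ - 2 * a₂ + a₃ = 0 ∧ x = 2 * a₁ - a₂) ∧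
      (X.card : ℝ) = (B : ℝ) ^ k ∧
      (E₁.card : ℝ) ≤ (((Finset.range B).image α₁).card : ℝ) ^ k ∧
      (E₂.card : ℝ) ≤ (((Finset.range B).image α₂).card : ℝ) ^ k ∧
      (E₃.card : ℝ) ≤ (((Finset.range B).image α₃).card : ℝ) ^ k := by
  classical
  have hB0 : 0 < B := by omega
  have hBR : (2 : ℝ) ≤ B := by exact_mod_cast hB
  have hKR : (0 : ℝ) ≤ K := by exact_mod_cast hK0
  set M : ℤ := 2 * K * (B : ℤ) ^ k + 1 with hM
  have hBk : (1 : ℝ) ≤ (B : ℝ) ^ k := one_le_pow₀ (by linarith)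
  refine ⟨(digitSet B α₁ k).image (fun a => a + 2 * M), (digitSet B α₂ k).image (fun a => a + M),
    digitSet B α₃ k, (Finset.range (B ^ k)).image (fun y : ℕ => (y : ℤ) + 3 * M),
    4 * (K : ℝ) * (B : ℝ) ^ k + 1, by positivity, by nlinarith, ?_, ?_, ?_, ?_, ?_, ?_⟩
  · have habs : ∀ (α : ℕ → ℤ), (∀ ρ < B, |α ρ| ≤ K) → ∀ a ∈ digitSet B α k,
        |(a : ℝ)| ≤ (K : ℝ) * (B : ℝ) ^ k := by
      intro α hα a ha
      obtain ⟨y, -, rfl⟩ := Finset.mem_image.mp ha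
      have := digitSum_abs_le hB hK0 hα k y
      have h3 : ((|digitSum B α k y| : ℤ) : ℝ) ≤ ((K * ((B : ℤ) ^ k - 1) : ℤ) : ℝ) := by
        exact_mod_cast this
      push_cast at h3
      nlinarith
    intro a₁ ha₁ a₂ ha₂
    obtain ⟨b₁, hb₁, rfl⟩ := Finset.mem_image.mp ha₁
    obtain ⟨b₂, hb₂, rfl⟩ := Finset.mem_image.mp ha₂
    have h3 := habs α₁ (fun ρ hρ => (hK ρ hρ).1) b₁ hb₁
    have h4 := habs α₂ (fun ρ hρ => (hK ρ hρ).2) b₂ hb₂
    rw [abs_le] at h3 h4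
    have hMR : (M : ℝ) = 2 * (K : ℝ) * (B : ℝ) ^ k + 1 := by
      rw [hM]; push_cast; ring
    push_cast
    rw [hMR]
    constructor <;> nlinarith [h3.1, h3.2, h4.1, h4.2]
  · intro x hx
    obtain ⟨y, hy, rfl⟩ := Finset.mem_image.mp hx
    have hy' := Finset.mem_range.mp hy
    refine ⟨digitSum B α₁ k y + 2 * M, Finset.mem_image_of_mem _ (Finset.mem_image_of_mem _ hy),
      digitSum B α₂ k y + M, Finset.mem_image_of_mem _ (Finset.mem_image_of_mem _ hy),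
      digitSum B α₃ k y, Finset.mem_image_of_mem _ hy, ?_, ?_⟩
    · have := digitSum_rel hB0 h1 k y
      linarith
    · have := digitSum_fourth hB0 h2 k hy'
      linarith
  · rw [Finset.card_image_of_injective, Finset.card_range]
    · push_cast; rfl
    · intro a b hab
      simpa using hab
  · have : ((digitSet B α₁ k).image (fun a => a + 2 * M)).card ≤
        ((Finset.range B).image α₁).card ^ k :=
      (Finset.card_image_le).trans (card_digitSet_le hB0 α₁ k)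
    exact_mod_cast this
  · have : ((digitSet B α₂ k).image (fun a => a + M)).card ≤
        ((Finset.range B).image α₂).card ^ k :=
      (Finset.card_image_le).trans (card_digitSet_le hB0 α₂ k)
    exact_mod_cast this
  · have : (digitSet B α₃ k).card ≤ ((Finset.range B).image α₃).card ^ k :=
      card_digitSet_le hB0 α₃ k
    exact_mod_cast this

lemma pow_rpow_comm {m : ℝ} (hm : 0 < m) (k : ℕ) (u : ℝ) : (m ^ k) ^ u = (m ^ u) ^ k := by
  rw [← Real.rpow_natCast, ← Real.rpow_natCast, ← Real.rpow_mul hm.le,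
    ← Real.rpow_mul hm.le, mul_comm]

/-- The elementary lower bound for the left side of the basic inequality at level `k`. -/
lemma level_lower_bound {B : ℝ} (hB : 0 < B) {s : ℝ} {K L : ℝ} (hK : 0 ≤ K) (k : ℕ) (hL : 0 < L + 1)
    (hLle : L + 1 ≤ (4 * K + 2) * B ^ k) :
    (1 / 16) / (4 * K + 2) * (1 / 16 : ℝ) ^ (1 / s) * (B ^ (1 / s - 1)) ^ k ≤
      (1 / 16) / (L + 1) * (B ^ k / 16) ^ (1 / s) := by
  have hpowB : (B ^ k / 16) ^ (1 / s) = (1 / 16 : ℝ) ^ (1 / s) * (B ^ k) ^ (1 / s) := by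
    rw [div_eq_inv_mul, Real.mul_rpow (by positivity) (by positivity)]
    norm_num
  have hρk : (B ^ (1 / s - 1)) ^ k = (B ^ k) ^ (1 / s) / B ^ k := by
    rw [← Real.rpow_natCast, ← Real.rpow_mul hB.le, ← Real.rpow_natCast,
      ← Real.rpow_mul hB.le, mul_comm ((1 / s - 1)) (k : ℝ), mul_sub, mul_one,
      Real.rpow_sub hB, mul_comm (k : ℝ) (1 / s), mul_comm ((1 / s)) (k : ℝ)]
  rw [hpowB, hρk]
  have hBk0 : (0 : ℝ) < B ^ k := by positivity
  have hA : (0 : ℝ) ≤ (1 / 16 : ℝ) ^ (1 / s) * (B ^ k) ^ (1 / s) := by positivity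
  calc (1 / 16) / (4 * K + 2) * (1 / 16 : ℝ) ^ (1 / s) * ((B ^ k) ^ (1 / s) / B ^ k)
      = (1 / 16) / ((4 * K + 2) * B ^ k) * ((1 / 16 : ℝ) ^ (1 / s) * (B ^ k) ^ (1 / s)) := by
        field_simp
    _ ≤ (1 / 16) / (L + 1) * ((1 / 16 : ℝ) ^ (1 / s) * (B ^ k) ^ (1 / s)) := by
        gcongr

/-- If `c ρ^k ≤ C σ^k` for all `k`, with `c, σ, ρ > 0`, then `log ρ ≤ log σ`. -/
lemma log_le_log_of_forall_pow {c C ρ σ : ℝ} (hc : 0 < c) (hρ : 0 < ρ) (hσ : 0 < σ)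
    (h : ∀ k : ℕ, c * ρ ^ k ≤ C * σ ^ k) : Real.log ρ ≤ Real.log σ := by
  by_contra hcon
  push Not at hcon
  have hlt : σ < ρ := (Real.log_lt_log_iff hσ hρ).mp hcon
  have hratio : 1 < ρ / σ := (one_lt_div hσ).mpr hlt
  obtain ⟨k, hk⟩ := pow_unbounded_of_one_lt (C / c) hratio
  have hl := h k
  rw [div_pow, div_lt_div_iff₀ hc (by positivity)] at hk
  nlinarith

/-- The necessary condition for boundedness given by a digit system: if `α₁, α₂, α₃` assign to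
each digit `ρ < B` a three-term progression `α₁ ρ, α₂ ρ, α₃ ρ` whose fourth point is
`2 α₁ ρ - α₂ ρ = ρ`, then boundedness at `(p₁,p₂,p₃,r)` forces
`(1/r - 1) log B ≤ ∑ (1/pᵢ) log mᵢ`, where `mᵢ` is the number of values of `αᵢ` on the digits. -/
theorem log_le_of_bounded {p₁ p₂ p₃ r : ℝ≥0∞} (hp₁0 : p₁ ≠ 0) (hp₁ : p₁ ≠ ⊤) (hp₂0 : p₂ ≠ 0)
    (hp₂ : p₂ ≠ ⊤) (hp₃0 : p₃ ≠ 0) (hp₃ : p₃ ≠ ⊤) (hr0 : r ≠ 0) (hr : r ≠ ⊤)
    (hbdd : THTBoundedAt p₁ p₂ p₃ r) {B : ℕ} (hB : 2 ≤ B) {α₁ α₂ α₃ : ℕ → ℤ}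
    (h1 : ∀ ρ < B, α₁ ρ - 2 * α₂ ρ + α₃ ρ = 0) (h2 : ∀ ρ < B, 2 * α₁ ρ - α₂ ρ = ρ) :
    (1 / r.toReal - 1) * Real.log B ≤
      1 / p₁.toReal * Real.log ((Finset.range B).image α₁).card +
      1 / p₂.toReal * Real.log ((Finset.range B).image α₂).card +
      1 / p₃.toReal * Real.log ((Finset.range B).image α₃).card := by
  classical
  obtain ⟨C, hC⟩ := hbdd
  have hB0 : 0 < B := by omega
  -- a common bound for the digits
  obtain ⟨K, hK0, hK⟩ : ∃ K : ℤ, 0 ≤ K ∧ ∀ ρ < B, |α₁ ρ| ≤ K ∧ |α₂ ρ| ≤ K := by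
    refine ⟨∑ ρ ∈ Finset.range B, (|α₁ ρ| + |α₂ ρ|),
      Finset.sum_nonneg fun _ _ => by positivity, fun ρ hρ => ?_⟩
    have hle : |α₁ ρ| + |α₂ ρ| ≤ ∑ ρ ∈ Finset.range B, (|α₁ ρ| + |α₂ ρ|) :=
      Finset.single_le_sum (f := fun ρ => |α₁ ρ| + |α₂ ρ|)
        (fun _ _ => by positivity) (Finset.mem_range.mpr hρ)
    constructor
    · linarith [abs_nonneg (α₂ ρ)]
    · linarith [abs_nonneg (α₁ ρ)]
  generalize hm₁ : ((Finset.range B).image α₁).card = m₁ at *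
  generalize hm₂ : ((Finset.range B).image α₂).card = m₂ at *
  generalize hm₃ : ((Finset.range B).image α₃).card = m₃ at *
  have hnonempty : (Finset.range B).Nonempty := Finset.nonempty_range_iff.mpr (by omega)
  have hm₁0 : 0 < m₁ := hm₁ ▸ Finset.card_pos.mpr (hnonempty.image _)
  have hm₂0 : 0 < m₂ := hm₂ ▸ Finset.card_pos.mpr (hnonempty.image _)
  have hm₃0 : 0 < m₃ := hm₃ ▸ Finset.card_pos.mpr (hnonempty.image _)
  have hs0 : 0 < r.toReal := ENNReal.toReal_pos hr0 hr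
  have hBR : (2 : ℝ) ≤ B := by exact_mod_cast hB
  have hBpos : (0 : ℝ) < B := by linarith
  have hm₁R : (0 : ℝ) < m₁ := by exact_mod_cast hm₁0
  have hm₂R : (0 : ℝ) < m₂ := by exact_mod_cast hm₂0
  have hm₃R : (0 : ℝ) < m₃ := by exact_mod_cast hm₃0
  have hKR : (0 : ℝ) ≤ K := by exact_mod_cast hK0
  have hlevel : ∀ k : ℕ, ((1 / 16) / (4 * (K : ℝ) + 2) * (1 / 16 : ℝ) ^ (1 / r.toReal)) *
      ((B : ℝ) ^ (1 / r.toReal - 1)) ^ k ≤
      (C : ℝ) * ((m₁ : ℝ) ^ (1 / p₁.toReal) * (m₂ : ℝ) ^ (1 / p₂.toReal) *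
        (m₃ : ℝ) ^ (1 / p₃.toReal)) ^ k := by
    intro k
    obtain ⟨E₁, E₂, E₃, X, L, hLpos, hLle, hsep, hXprop, hcardX, hc₁, hc₂, hc₃⟩ :=
      exists_level_sets hB h1 h2 hK0 hK k
    rw [hm₁] at hc₁
    rw [hm₂] at hc₂
    rw [hm₃] at hc₃
    have hbasic := basic_inequality hp₁0 hp₁ hp₂0 hp₂ hp₃0 hp₃ hr0 hr hC hLpos hsep hXprop
    rw [hcardX] at hbasic
    refine (level_lower_bound hBpos hKR k hLpos hLle).trans (hbasic.trans ?_)
    have e₁ : (E₁.card : ℝ) ^ (1 / p₁.toReal) ≤ ((m₁ : ℝ) ^ (1 / p₁.toReal)) ^ k := by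
      rw [← pow_rpow_comm hm₁R]
      exact Real.rpow_le_rpow (by positivity) hc₁ (by positivity)
    have e₂ : (E₂.card : ℝ) ^ (1 / p₂.toReal) ≤ ((m₂ : ℝ) ^ (1 / p₂.toReal)) ^ k := by
      rw [← pow_rpow_comm hm₂R]
      exact Real.rpow_le_rpow (by positivity) hc₂ (by positivity)
    have e₃ : (E₃.card : ℝ) ^ (1 / p₃.toReal) ≤ ((m₃ : ℝ) ^ (1 / p₃.toReal)) ^ k := by
      rw [← pow_rpow_comm hm₃R]
      exact Real.rpow_le_rpow (by positivity) hc₃ (by positivity)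
    rw [mul_pow, mul_pow, mul_assoc, mul_assoc, mul_assoc ((((m₁ : ℝ) ^ _) ^ k))]
    gcongr
  have hfinal := log_le_log_of_forall_pow (c := (1 / 16) / (4 * (K : ℝ) + 2) * (1 / 16 : ℝ) ^ (1 / r.toReal))
    (by positivity) (by positivity) (by positivity) hlevel
  rw [Real.log_rpow hBpos, Real.log_mul (by positivity) (by positivity),
    Real.log_mul (by positivity) (by positivity), Real.log_rpow hm₁R, Real.log_rpow hm₂R,
    Real.log_rpow hm₃R] at hfinal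
  exact hfinal

end Vale.Agent.P141
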