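import Vale.Agent.P141.TestFunctions

/-!
# Evaluation of the trilinear Hilbert transform on the test functions
-/

open MeasureTheory Filter Topology Set
open scoped ENNReal NNReal SchwartzMap ContDiff

namespace Vale.Agent.P141

/-- The (real, nonnegative) integrand of the transform on the test functions. -/
noncomputable def kern (E₁ E₂ E₃ : Finset ℤ) (x t : ℝ) : ℝ :=
  comb E₁ (x - t) * comb E₂ (x - 2 * t) * comb E₃ (x - 3 * t) / t

variable {E₁ E₂ E₃ : Finset ℤ} {L : ℝ}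

lemma prod_ne_zero_imp (hsep : ∀ a₁ ∈ E₁, ∀ a₂ ∈ E₂, 1 ≤ (a₁ : ℝ) - a₂ ∧ (a₁ : ℝ) - a₂ ≤ L)
    {x t : ℝ} (h : comb E₁ (x - t) * comb E₂ (x - 2 * t) * comb E₃ (x - 3 * t) ≠ 0) :
    1 / 2 < t ∧ t < L + 1 / 2 := by
  have h1 : comb E₁ (x - t) ≠ 0 := by
    intro h0; exact h (by simp [h0])
  have h2 : comb E₂ (x - 2 * t) ≠ 0 := by
    intro h0; exact h (by simp [h0])
  obtain ⟨a₁, ha₁, h1'⟩ := exists_of_comb_ne_zero h1
  obtain ⟨a₂, ha₂, h2'⟩ := exists_of_comb_ne_zero h2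
  obtain ⟨hl, hu⟩ := hsep a₁ ha₁ a₂ ha₂
  rw [abs_lt] at h1' h2'
  constructor <;> linarith [h1'.1, h1'.2, h2'.1, h2'.2]

lemma kern_ne_zero_imp (hsep : ∀ a₁ ∈ E₁, ∀ a₂ ∈ E₂, 1 ≤ (a₁ : ℝ) - a₂ ∧ (a₁ : ℝ) - a₂ ≤ L)
    {x t : ℝ} (h : kern E₁ E₂ E₃ x t ≠ 0) : 1 / 2 < t ∧ t < L + 1 / 2 := by
  refine prod_ne_zero_imp hsep (E₃ := E₃) (x := x) ?_
  intro h0
  exact h (by simp [kern, h0])

lemma kern_nonneg (hsep : ∀ a₁ ∈ E₁, ∀ a₂ ∈ E₂, 1 ≤ (a₁ : ℝ) - a₂ ∧ (a₁ : ℝ) - a₂ ≤ L)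
    (x t : ℝ) : 0 ≤ kern E₁ E₂ E₃ x t := by
  by_cases h : kern E₁ E₂ E₃ x t = 0
  · exact h.ge
  · have ht := (kern_ne_zero_imp hsep h).1
    unfold kern
    have := comb_nonneg E₁ (x - t)
    have := comb_nonneg E₂ (x - 2 * t)
    have := comb_nonneg E₃ (x - 3 * t)
    have : 0 < t := by linarith
    positivity

lemma kern_integrable (hsep : ∀ a₁ ∈ E₁, ∀ a₂ ∈ E₂, 1 ≤ (a₁ : ℝ) - a₂ ∧ (a₁ : ℝ) - a₂ ≤ L)
    (x : ℝ) : Integrable (kern E₁ E₂ E₃ x) := by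
  have hcont : Continuous (kern E₁ E₂ E₃ x) := by
    have heq : kern E₁ E₂ E₃ x = fun t =>
        comb E₁ (x - t) * comb E₂ (x - 2 * t) * comb E₃ (x - 3 * t) * (max t (1 / 2))⁻¹ := by
      funext t
      by_cases h : comb E₁ (x - t) * comb E₂ (x - 2 * t) * comb E₃ (x - 3 * t) = 0
      · simp [kern, h]
      · have ht := (prod_ne_zero_imp hsep h).1
        rw [max_eq_left ht.le]
        simp [kern, div_eq_mul_inv]
    rw [heq]
    have h1 := comb_continuous E₁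
    have h2 := comb_continuous E₂
    have h3 := comb_continuous E₃
    refine Continuous.mul (by fun_prop) ?_
    refine Continuous.inv₀ (by fun_prop) fun t => ?_
    have : (0 : ℝ) < max t (1 / 2) := lt_max_of_lt_right (by norm_num)
    exact this.ne'
  refine hcont.integrable_of_hasCompactSupport ?_
  refine HasCompactSupport.intro (isCompact_Icc (a := (1 / 2 : ℝ)) (b := L + 1 / 2)) ?_
  intro t ht
  by_contra hne
  have := kern_ne_zero_imp hsep hne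
  exact ht ⟨this.1.le, this.2.le⟩

/-- The truncations stabilise on the test functions. -/
lemma truncatedTHT_combS
    (hsep : ∀ a₁ ∈ E₁, ∀ a₂ ∈ E₂, 1 ≤ (a₁ : ℝ) - a₂ ∧ (a₁ : ℝ) - a₂ ≤ L)
    {ε R : ℝ} (hε : ε < 1 / 2) (hR : L + 1 / 2 ≤ R) (x : ℝ) :
    truncatedTHT (combS E₁) (combS E₂) (combS E₃) ε R x = ((∫ t, kern E₁ E₂ E₃ x t : ℝ) : ℂ) := by
  unfold truncatedTHT
  have hint : ∀ t : ℝ, (combS E₁) (x - t) * (combS E₂) (x - 2 * t) * (combS E₃) (x - 3 * t) / (t : ℂ)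
      = ((kern E₁ E₂ E₃ x t : ℝ) : ℂ) := by
    intro t
    simp [kern]
  simp_rw [hint]
  rw [setIntegral_eq_integral_of_forall_compl_eq_zero, integral_complex_ofReal]
  intro t ht
  have : kern E₁ E₂ E₃ x t = 0 := by
    by_contra hne
    obtain ⟨h1, h2⟩ := kern_ne_zero_imp hsep hne
    apply ht
    have ht0 : 0 < t := by linarith
    simp only [mem_setOf_eq, abs_of_pos ht0]
    exact ⟨by linarith, by linarith⟩
  simp [this]

/-- The value of the transform on the test functions. -/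
lemma tht_combS
    (hsep : ∀ a₁ ∈ E₁, ∀ a₂ ∈ E₂, 1 ≤ (a₁ : ℝ) - a₂ ∧ (a₁ : ℝ) - a₂ ≤ L) (x : ℝ) :
    tht (combS E₁) (combS E₂) (combS E₃) x = ((∫ t, kern E₁ E₂ E₃ x t : ℝ) : ℂ) := by
  unfold tht
  refine Tendsto.limUnder_eq ?_
  refine tendsto_const_nhds.congr' ?_
  have h1 : ∀ᶠ ε in 𝓝[>] (0 : ℝ), ε < 1 / 2 :=
    eventually_nhdsWithin_of_eventually_nhds (eventually_lt_nhds (by norm_num))
  have h2 : ∀ᶠ R in (atTop : Filter ℝ), L + 1 / 2 ≤ R := eventually_ge_atTop _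
  have h3 := h1.prod_mk h2
  filter_upwards [h3] with q hq
  exact (truncatedTHT_combS hsep hq.1 hq.2 x).symm

/-- Pointwise lower bound for the transform near the fourth points of the arithmetic
progressions. -/
lemma integral_kern_ge
    (hsep : ∀ a₁ ∈ E₁, ∀ a₂ ∈ E₂, 1 ≤ (a₁ : ℝ) - a₂ ∧ (a₁ : ℝ) - a₂ ≤ L)
    {a₁ a₂ a₃ : ℤ} (h₁ : a₁ ∈ E₁) (h₂ : a₂ ∈ E₂) (h₃ : a₃ ∈ E₃)
    (hrel : a₁ - 2 * a₂ + a₃ = 0) {x : ℝ} (hx : |x - ((2 * a₁ - a₂ : ℤ) : ℝ)| ≤ 1 / 32) :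
    (1 / 16) / (L + 1) ≤ ∫ t, kern E₁ E₂ E₃ x t := by
  obtain ⟨hl, hu⟩ := hsep a₁ h₁ a₂ h₂
  have hLpos : 0 < L + 1 := by linarith
  set t₀ : ℝ := (a₁ : ℝ) - a₂ with ht₀
  have hrelR : (a₁ : ℝ) - 2 * a₂ + a₃ = 0 := by exact_mod_cast hrel
  have hxR : |x - (2 * (a₁ : ℝ) - a₂)| ≤ 1 / 32 := by
    have : ((2 * a₁ - a₂ : ℤ) : ℝ) = 2 * (a₁ : ℝ) - a₂ := by push_cast; ring
    rwa [this] at hx
  rw [abs_le] at hxR
  have hlow : ∀ t ∈ Icc (t₀ - 1 / 32) (t₀ + 1 / 32), 1 / (L + 1) ≤ kern E₁ E₂ E₃ x t := by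
    intro t ht
    obtain ⟨ht1, ht2⟩ := ht
    have c1 : 1 ≤ comb E₁ (x - t) := one_le_comb h₁ (by
      rw [abs_le]; constructor <;> linarith [hxR.1, hxR.2])
    have c2 : 1 ≤ comb E₂ (x - 2 * t) := one_le_comb h₂ (by
      rw [abs_le]; constructor <;> linarith [hxR.1, hxR.2])
    have c3 : 1 ≤ comb E₃ (x - 3 * t) := one_le_comb h₃ (by
      rw [abs_le]; constructor <;> linarith [hxR.1, hxR.2])
    have htpos : 0 < t := by linarith
    have htle : t ≤ L + 1 := by linarith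
    unfold kern
    have hprod : 1 ≤ comb E₁ (x - t) * comb E₂ (x - 2 * t) * comb E₃ (x - 3 * t) := by
      nlinarith [mul_le_mul c1 c2 zero_le_one (by linarith), comb_nonneg E₃ (x - 3 * t),
        mul_nonneg (comb_nonneg E₁ (x - t)) (comb_nonneg E₂ (x - 2 * t))]
    calc 1 / (L + 1) ≤ 1 / t := one_div_le_one_div_of_le htpos htle
      _ ≤ _ := by gcongr
  have hI := kern_integrable (E₃ := E₃) hsep x
  calc (1 / 16) / (L + 1) = ∫ _t in Icc (t₀ - 1 / 32) (t₀ + 1 / 32), (1 / (L + 1)) := by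
        rw [setIntegral_const]
        simp only [Real.volume_real_Icc, smul_eq_mul]
        rw [max_eq_left (by linarith)]
        ring
    _ ≤ ∫ t in Icc (t₀ - 1 / 32) (t₀ + 1 / 32), kern E₁ E₂ E₃ x t := by
        refine setIntegral_mono_on ?_ hI.integrableOn measurableSet_Icc hlow
        exact integrableOn_const (by simp) (by simp)
    _ ≤ ∫ t, kern E₁ E₂ E₃ x t :=
        setIntegral_le_integral hI (Eventually.of_forall (kern_nonneg hsep x))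

end Vale.Agent.P141
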