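import Vale.Agent.P141.Digits

/-!
# Failure of boundedness of the trilinear Hilbert transform for `r < 7/16`
-/

open MeasureTheory Filter Topology Set
open scoped ENNReal NNReal SchwartzMap ContDiff

namespace Vale.Agent.P141

/-- First digit system, base 18: for `i = ρ-th table entry`, progressions
`(2i+5, i+l+5, 2l+5)` with fourth point `ρ = 3i-l+5`. -/
def tabI18 : List ℤ := [0, 0, 0, 1, 1, 1, 1, 2, 2, 2, 2, 3, 3, 3, 3, 4, 4, 4]
/-- Companion table. -/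
def tabL18 : List ℤ := [5, 4, 3, 5, 4, 3, 2, 4, 3, 2, 1, 3, 2, 1, 0, 2, 1, 0]

/-- Digit map 1 of the base 18 system. -/
def a18₁ (ρ : ℕ) : ℤ := 2 * tabI18.getD ρ 0 + 5
/-- Digit map 2 of the base 18 system. -/
def a18₂ (ρ : ℕ) : ℤ := tabI18.getD ρ 0 + tabL18.getD ρ 0 + 5
/-- Digit map 3 of the base 18 system. -/
def a18₃ (ρ : ℕ) : ℤ := 2 * tabL18.getD ρ 0 + 5

lemma a18_rel : ∀ ρ < 18, a18₁ ρ - 2 * a18₂ ρ + a18₃ ρ = 0 := by decide
lemma a18_fourth : ∀ ρ < 18, 2 * a18₁ ρ - a18₂ ρ = ρ := by decide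
lemma a18_card₁ : ((Finset.range 18).image a18₁).card = 5 := by decide
lemma a18_card₂ : ((Finset.range 18).image a18₂).card = 4 := by decide
lemma a18_card₃ : ((Finset.range 18).image a18₃).card = 6 := by decide

/-- Digit map 1 of the base 15 system: `(2i+2, i+l+2, 2l+2)`, `i = ρ/3`, `l = 2 - ρ % 3`. -/
def a15₁ (ρ : ℕ) : ℤ := 2 * ((ρ / 3 : ℕ) : ℤ) + 2
/-- Digit map 2 of the base 15 system. -/
def a15₂ (ρ : ℕ) : ℤ := ((ρ / 3 : ℕ) : ℤ) + (2 - ((ρ % 3 : ℕ) : ℤ)) + 2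
/-- Digit map 3 of the base 15 system. -/
def a15₃ (ρ : ℕ) : ℤ := 2 * (2 - ((ρ % 3 : ℕ) : ℤ)) + 2

lemma a15_rel : ∀ ρ < 15, a15₁ ρ - 2 * a15₂ ρ + a15₃ ρ = 0 := by decide
lemma a15_fourth : ∀ ρ < 15, 2 * a15₁ ρ - a15₂ ρ = ρ := by decide
lemma a15_card₁ : ((Finset.range 15).image a15₁).card = 5 := by decide
lemma a15_card₂ : ((Finset.range 15).image a15₂).card = 7 := by decide
lemma a15_card₃ : ((Finset.range 15).image a15₃).card = 3 := by decide

/-- Numerical bounds for the logarithms that we need. -/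
lemma log_three_bounds : (1.0985 : ℝ) < Real.log 3 ∧ Real.log 3 < 1.0989 := by
  have h2l := Real.log_two_gt_d9
  have h2u := Real.log_two_lt_d9
  constructor
  · have h : (84 : ℝ) * Real.log 2 ≤ 53 * Real.log 3 := by
      have h1 : ((2 : ℝ) ^ 84) ≤ (3 : ℝ) ^ 53 := by norm_num
      have h2 := Real.log_le_log (by positivity) h1
      rw [Real.log_pow, Real.log_pow] at h2
      simpa using h2
    linarith
  · have h : (41 : ℝ) * Real.log 3 ≤ 65 * Real.log 2 := by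
      have h1 : ((3 : ℝ) ^ 41) ≤ (2 : ℝ) ^ 65 := by norm_num
      have h2 := Real.log_le_log (by positivity) h1
      rw [Real.log_pow, Real.log_pow] at h2
      simpa using h2
    linarith

lemma log_five_bounds : (1.609 : ℝ) < Real.log 5 ∧ Real.log 5 < 1.61 := by
  have h2l := Real.log_two_gt_d9
  have h2u := Real.log_two_lt_d9
  constructor
  · have h : (65 : ℝ) * Real.log 2 ≤ 28 * Real.log 5 := by
      have h1 : ((2 : ℝ) ^ 65) ≤ (5 : ℝ) ^ 28 := by norm_num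
      have h2 := Real.log_le_log (by positivity) h1
      rw [Real.log_pow, Real.log_pow] at h2
      simpa using h2
    linarith
  · have h : (31 : ℝ) * Real.log 5 ≤ 72 * Real.log 2 := by
      have h1 : ((5 : ℝ) ^ 31) ≤ (2 : ℝ) ^ 72 := by norm_num
      have h2 := Real.log_le_log (by positivity) h1
      rw [Real.log_pow, Real.log_pow] at h2
      simpa using h2
    linarith

lemma log_seven_upper : Real.log 7 < 1.9468 := by
  have h2u := Real.log_two_lt_d9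
  have h : (47 : ℝ) * Real.log 7 ≤ 132 * Real.log 2 := by
    have h1 : ((7 : ℝ) ^ 47) ≤ (2 : ℝ) ^ 132 := by norm_num
    have h2 := Real.log_le_log (by positivity) h1
    rw [Real.log_pow, Real.log_pow] at h2
    simpa using h2
  linarith

/-- The arithmetic heart of the corollary: the two necessary conditions exclude `∑ uᵢ > 16/7`. -/
lemma exponent_contradiction {u₁ u₂ u₃ : ℝ} (h₁0 : 0 ≤ u₁) (h₂0 : 0 ≤ u₂) (h₃0 : 0 ≤ u₃)
    (h₁1 : u₁ < 1) (hsum : 16 / 7 < u₁ + u₂ + u₃)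
    (hA : (u₁ + u₂ + u₃ - 1) * Real.log (18 : ℕ) ≤
      u₁ * Real.log (5 : ℕ) + u₂ * Real.log (4 : ℕ) + u₃ * Real.log (6 : ℕ))
    (hB : (u₁ + u₂ + u₃ - 1) * Real.log (15 : ℕ) ≤
      u₁ * Real.log (5 : ℕ) + u₂ * Real.log (7 : ℕ) + u₃ * Real.log (3 : ℕ)) : False := by
  have h2l := Real.log_two_gt_d9
  have h2u := Real.log_two_lt_d9
  obtain ⟨h3l, h3u⟩ := log_three_bounds
  obtain ⟨h5l, h5u⟩ := log_five_bounds
  have h7u := log_seven_upper
  have e18 : Real.log (18 : ℕ) = Real.log 2 + 2 * Real.log 3 := by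
    rw [show ((18 : ℕ) : ℝ) = 2 * 3 ^ 2 by norm_num, Real.log_mul (by norm_num) (by norm_num),
      Real.log_pow]; norm_num
  have e4 : Real.log (4 : ℕ) = 2 * Real.log 2 := by
    rw [show ((4 : ℕ) : ℝ) = 2 ^ 2 by norm_num, Real.log_pow]; norm_num
  have e6 : Real.log (6 : ℕ) = Real.log 2 + Real.log 3 := by
    rw [show ((6 : ℕ) : ℝ) = 2 * 3 by norm_num, Real.log_mul (by norm_num) (by norm_num)]
  have e15 : Real.log (15 : ℕ) = Real.log 3 + Real.log 5 := by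
    rw [show ((15 : ℕ) : ℝ) = 3 * 5 by norm_num, Real.log_mul (by norm_num) (by norm_num)]
  have e5 : Real.log (5 : ℕ) = Real.log 5 := by norm_num
  have e7 : Real.log (7 : ℕ) = Real.log 7 := by norm_num
  have e3 : Real.log (3 : ℕ) = Real.log 3 := by norm_num
  rw [e18, e5, e4, e6] at hA
  rw [e15, e5, e7, e3] at hB
  have hv : 0 < u₁ + u₂ + u₃ - 1 := by linarith
  -- replace the logarithms by rational bounds
  have a1 : (u₁ + u₂ + u₃ - 1) * 2.8896 ≤ (u₁ + u₂ + u₃ - 1) * (Real.log 2 + 2 * Real.log 3) :=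
    mul_le_mul_of_nonneg_left (by linarith) hv.le
  have a2 : u₁ * Real.log 5 ≤ u₁ * 1.61 := mul_le_mul_of_nonneg_left h5u.le h₁0
  have a3 : u₂ * (2 * Real.log 2) ≤ u₂ * 1.3863 := mul_le_mul_of_nonneg_left (by linarith) h₂0
  have a4 : u₃ * (Real.log 2 + Real.log 3) ≤ u₃ * 1.7921 :=
    mul_le_mul_of_nonneg_left (by linarith) h₃0
  have b1 : (u₁ + u₂ + u₃ - 1) * 2.7075 ≤ (u₁ + u₂ + u₃ - 1) * (Real.log 3 + Real.log 5) :=
    mul_le_mul_of_nonneg_left (by linarith) hv.le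
  have b2 : u₂ * Real.log 7 ≤ u₂ * 1.9468 := mul_le_mul_of_nonneg_left h7u.le h₂0
  have b3 : u₃ * Real.log 3 ≤ u₃ * 1.0989 := mul_le_mul_of_nonneg_left h3u.le h₃0
  linarith

/-- **Main theorem.** The trilinear Hilbert transform is not bounded at any Hölder tuple with
`r < 7/16`. -/
theorem not_bounded_of_lt {p₁ p₂ p₃ r : ℝ≥0∞} (h : IsHolderTuple p₁ p₂ p₃ r)
    (hr : r < 7 / 16) : ¬ THTBoundedAt p₁ p₂ p₃ r := by
  intro hbdd
  obtain ⟨h₁, h₂, h₃, hr0, hrt, hH⟩ := h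
  have hp₁0 : p₁ ≠ 0 := (zero_le_one.trans_lt h₁).ne'
  have hp₂0 : p₂ ≠ 0 := (zero_le_one.trans_lt h₂).ne'
  have hp₃0 : p₃ ≠ 0 := (zero_le_one.trans_lt h₃).ne'
  have hinv : ∀ {p : ℝ≥0∞}, 1 < p → p⁻¹ ≠ ⊤ ∧ (p⁻¹).toReal = 1 / p.toReal ∧ 1 / p.toReal < 1 := by
    intro p hp
    have h0 : p ≠ 0 := (zero_le_one.trans_lt hp).ne'
    refine ⟨ENNReal.inv_ne_top.mpr h0, by simp [ENNReal.toReal_inv], ?_⟩
    by_cases ht : p = ⊤
    · simp [ht]
    · have : 1 < p.toReal := by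
        have := ENNReal.toReal_strict_mono ht hp
        simpa using this
      rw [div_lt_one (by linarith)]
      exact this
  obtain ⟨i₁, e₁, l₁⟩ := hinv h₁
  obtain ⟨i₂, e₂, l₂⟩ := hinv h₂
  obtain ⟨i₃, e₃, l₃⟩ := hinv h₃
  have hs0 : 0 < r.toReal := ENNReal.toReal_pos hr0.ne' hrt.ne
  have hsum : 1 / r.toReal = 1 / p₁.toReal + 1 / p₂.toReal + 1 / p₃.toReal := by
    have hH' := congrArg ENNReal.toReal hH
    rw [ENNReal.toReal_inv, ENNReal.toReal_add (by simp [i₁, i₂]) i₃, ENNReal.toReal_add i₁ i₂,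
      e₁, e₂, e₃] at hH'
    simpa [one_div] using hH'
  have hs1 : r.toReal < 7 / 16 := by
    have hlt := (ENNReal.toReal_lt_toReal hrt.ne
      (ENNReal.div_ne_top (by norm_num) (by norm_num))).mpr hr
    have h716 : ((7 / 16 : ℝ≥0∞)).toReal = 7 / 16 := by
      rw [ENNReal.toReal_div]; norm_num
    rwa [h716] at hlt
  have hbig : 16 / 7 < 1 / r.toReal := by
    rw [lt_div_iff₀ hs0]
    linarith
  set u₁ := 1 / p₁.toReal with hu₁
  set u₂ := 1 / p₂.toReal with hu₂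
  set u₃ := 1 / p₃.toReal with hu₃
  have hu₁0 : 0 ≤ u₁ := by positivity
  have hu₂0 : 0 ≤ u₂ := by positivity
  have hu₃0 : 0 ≤ u₃ := by positivity
  have hfin : ∀ {p : ℝ≥0∞}, 0 < 1 / p.toReal → p ≠ ⊤ := by
    intro p hp ht
    simp [ht] at hp
  have hp₁ : p₁ ≠ ⊤ := hfin (by rw [← hu₁]; linarith)
  have hp₂ : p₂ ≠ ⊤ := hfin (by rw [← hu₂]; linarith)
  have hp₃ : p₃ ≠ ⊤ := hfin (by rw [← hu₃]; linarith)
  have hA := log_le_of_bounded hp₁0 hp₁ hp₂0 hp₂ hp₃0 hp₃ hr0.ne' hrt.ne hbdd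
    (B := 18) (by norm_num) a18_rel a18_fourth
  have hB := log_le_of_bounded hp₁0 hp₁ hp₂0 hp₂ hp₃0 hp₃ hr0.ne' hrt.ne hbdd
    (B := 15) (by norm_num) a15_rel a15_fourth
  rw [a18_card₁, a18_card₂, a18_card₃, hsum] at hA
  rw [a15_card₁, a15_card₂, a15_card₃, hsum] at hB
  exact exponent_contradiction hu₁0 hu₂0 hu₃0 l₁ (hsum ▸ hbig) hA hB

/-- An example of a Hölder tuple in the excluded range. -/
lemma holder_example : IsHolderTuple (5 / 4) (5 / 4) (5 / 4) (5 / 12) := by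
  unfold IsHolderTuple
  have h54 : (1 : ℝ≥0∞) < 5 / 4 := by
    rw [ENNReal.lt_div_iff_mul_lt (by simp) (by simp)]
    norm_num
  refine ⟨h54, h54, h54, ?_, ?_, ?_⟩
  · exact ENNReal.div_pos (by norm_num) (by simp)
  · exact ENNReal.div_lt_top (by norm_num) (by norm_num)
  · rw [ENNReal.inv_div (by simp) (by simp), ENNReal.inv_div (by simp) (by simp),
      ENNReal.div_add_div_same, ENNReal.div_add_div_same]
    norm_num

end Vale.Agent.P141
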