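import Vale.Agent.P141.Kernel

/-!
# The basic necessary condition for boundedness
-/

open MeasureTheory Filter Topology Set
open scoped ENNReal NNReal SchwartzMap ContDiff

namespace Vale.Agent.P141

variable {E₁ E₂ E₃ X : Finset ℤ} {L : ℝ}

/-- The neighbourhood of the set `X` on which the transform is large. -/
def nbhdSet (X : Finset ℤ) : Set ℝ := ⋃ x ∈ X, Icc ((x : ℝ) - 1 / 32) ((x : ℝ) + 1 / 32)

lemma nbhdSet_measurable (X : Finset ℤ) : MeasurableSet (nbhdSet X) :=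
  Finset.measurableSet_biUnion _ fun _ _ => measurableSet_Icc

lemma nbhdSet_volume (X : Finset ℤ) :
    volume (nbhdSet X) = ENNReal.ofReal ((X.card : ℝ) / 16) := by
  classical
  unfold nbhdSet
  rw [measure_biUnion_finset]
  · simp only [Real.volume_Icc]
    have : ∀ x : ℤ, ((x : ℝ) + 1 / 32 - ((x : ℝ) - 1 / 32)) = 1 / 16 := fun x => by ring
    simp only [this, Finset.sum_const, nsmul_eq_mul]
    rw [show (X.card : ℝ) / 16 = (X.card : ℝ) * (1 / 16) by ring,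
      ENNReal.ofReal_mul (by positivity), ENNReal.ofReal_natCast]
  · intro x _ y _ hxy
    refine Set.disjoint_left.mpr fun z hz hz' => hxy ?_
    obtain ⟨h1, h2⟩ := hz
    obtain ⟨h3, h4⟩ := hz'
    by_contra hne
    have h5 : (1 : ℤ) ≤ |x - y| := Int.one_le_abs (sub_ne_zero.mpr hne)
    have h6 : (1 : ℝ) ≤ |(x : ℝ) - y| := by exact_mod_cast h5
    have h7 : |(x : ℝ) - y| < 1 := by
      rw [abs_lt]; constructor <;> linarith
    linarith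
  · exact fun _ _ => measurableSet_Icc

/-- The basic inequality: a bound for the trilinear Hilbert transform at `(p₁,p₂,p₃,r)` restricts
the sizes of sets `E₁,E₂,E₃` whose three-term progressions have many distinct fourth points. -/
theorem basic_inequality {p₁ p₂ p₃ r : ℝ≥0∞} (hp₁0 : p₁ ≠ 0) (hp₁ : p₁ ≠ ⊤) (hp₂0 : p₂ ≠ 0)
    (hp₂ : p₂ ≠ ⊤) (hp₃0 : p₃ ≠ 0) (hp₃ : p₃ ≠ ⊤) (hr0 : r ≠ 0) (hr : r ≠ ⊤) {C : ℝ≥0}
    (hC : ∀ f₁ f₂ f₃ : 𝓢(ℝ, ℂ),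
      eLpNorm (tht f₁ f₂ f₃) r volume ≤
        C * eLpNorm f₁ p₁ volume * eLpNorm f₂ p₂ volume * eLpNorm f₃ p₃ volume)
    (hLpos : 0 < L + 1)
    (hsep : ∀ a₁ ∈ E₁, ∀ a₂ ∈ E₂, 1 ≤ (a₁ : ℝ) - a₂ ∧ (a₁ : ℝ) - a₂ ≤ L)
    (hX : ∀ x ∈ X, ∃ a₁ ∈ E₁, ∃ a₂ ∈ E₂, ∃ a₃ ∈ E₃, a₁ - 2 * a₂ + a₃ = 0 ∧ x = 2 * a₁ - a₂) :
    (1 / 16) / (L + 1) * ((X.card : ℝ) / 16) ^ (1 / r.toReal) ≤
      C * (E₁.card : ℝ) ^ (1 / p₁.toReal) * (E₂.card : ℝ) ^ (1 / p₂.toReal) *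
        (E₃.card : ℝ) ^ (1 / p₃.toReal) := by
  set c : ℝ := (1 / 16) / (L + 1) with hc
  have hc0 : 0 ≤ c := by positivity
  have hpw : ∀ x ∈ nbhdSet X, c ≤ ‖tht (combS E₁) (combS E₂) (combS E₃) x‖ := by
    intro x hx
    obtain ⟨x₀, hx₀, hxx₀⟩ := mem_iUnion₂.mp hx
    obtain ⟨a₁, h₁, a₂, h₂, a₃, h₃, hrel, hxeq⟩ := hX x₀ hx₀
    have hI : c ≤ ∫ t, kern E₁ E₂ E₃ x t := by
      refine integral_kern_ge hsep h₁ h₂ h₃ hrel ?_
      rw [← hxeq, abs_le]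
      obtain ⟨h1, h2⟩ := hxx₀
      constructor <;> linarith
    rw [tht_combS hsep, Complex.norm_real, Real.norm_eq_abs]
    exact hI.trans (le_abs_self _)
  have hlow : eLpNorm ((nbhdSet X).indicator (fun _ => c)) r volume ≤
      eLpNorm (tht (combS E₁) (combS E₂) (combS E₃)) r volume := by
    refine eLpNorm_mono fun x => ?_
    by_cases hx : x ∈ nbhdSet X
    · rw [indicator_of_mem hx, Real.norm_eq_abs, abs_of_nonneg hc0]
      exact hpw x hx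
    · rw [indicator_of_notMem hx]
      simp
  rw [eLpNorm_indicator_const (nbhdSet_measurable X) hr0 hr, nbhdSet_volume] at hlow
  have hup := (hC (combS E₁) (combS E₂) (combS E₃))
  have hchain := hlow.trans hup
  have h₁ := eLpNorm_combS_le E₁ hp₁0 hp₁
  have h₂ := eLpNorm_combS_le E₂ hp₂0 hp₂
  have h₃ := eLpNorm_combS_le E₃ hp₃0 hp₃
  have hchain2 : ‖c‖ₑ * ENNReal.ofReal ((X.card : ℝ) / 16) ^ (1 / r.toReal) ≤
      (C : ℝ≥0∞) * (E₁.card : ℝ≥0∞) ^ (1 / p₁.toReal) * (E₂.card : ℝ≥0∞) ^ (1 / p₂.toReal) *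
        (E₃.card : ℝ≥0∞) ^ (1 / p₃.toReal) := by
    refine hchain.trans ?_
    gcongr
  have hposr : 0 ≤ 1 / r.toReal := by positivity
  have hposq₁ : 0 ≤ 1 / p₁.toReal := by positivity
  have hposq₂ : 0 ≤ 1 / p₂.toReal := by positivity
  have hposq₃ : 0 ≤ 1 / p₃.toReal := by positivity
  have hlhs : ‖c‖ₑ * ENNReal.ofReal ((X.card : ℝ) / 16) ^ (1 / r.toReal) =
      ENNReal.ofReal (c * ((X.card : ℝ) / 16) ^ (1 / r.toReal)) := by
    rw [ENNReal.ofReal_mul hc0, ENNReal.ofReal_rpow_of_nonneg (by positivity) hposr,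
      Real.enorm_of_nonneg hc0]
  have hcard : ∀ (n : ℕ) (q : ℝ), 0 ≤ q →
      (n : ℝ≥0∞) ^ q = ENNReal.ofReal ((n : ℝ) ^ q) := by
    intro n q hq
    rw [← ENNReal.ofReal_rpow_of_nonneg (by positivity) hq, ENNReal.ofReal_natCast]
  have hrhs : (C : ℝ≥0∞) * (E₁.card : ℝ≥0∞) ^ (1 / p₁.toReal) *
      (E₂.card : ℝ≥0∞) ^ (1 / p₂.toReal) * (E₃.card : ℝ≥0∞) ^ (1 / p₃.toReal) =
      ENNReal.ofReal ((C : ℝ) * (E₁.card : ℝ) ^ (1 / p₁.toReal) *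
        (E₂.card : ℝ) ^ (1 / p₂.toReal) * (E₃.card : ℝ) ^ (1 / p₃.toReal)) := by
    rw [hcard _ _ hposq₁, hcard _ _ hposq₂, hcard _ _ hposq₃]
    rw [ENNReal.ofReal_mul (by positivity), ENNReal.ofReal_mul (by positivity),
      ENNReal.ofReal_mul (by positivity), ENNReal.ofReal_coe_nnreal]
  rw [hlhs, hrhs] at hchain2
  exact (ENNReal.ofReal_le_ofReal_iff (by positivity)).mp hchain2

end Vale.Agent.P141
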