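import Vale.Agent.P141.Defs

/-!
# Test functions: sums of unit-separated bumps at integer points
-/

open MeasureTheory Filter Topology Set
open scoped ENNReal NNReal SchwartzMap ContDiff

namespace Vale.Agent.P141

/-- A fixed smooth bump: equal to `1` on `[-1/8,1/8]`, supported in `(-1/4,1/4)`, values in
`[0,1]`. -/
noncomputable def bump : ContDiffBump (0 : ℝ) := ⟨1 / 8, 1 / 4, by norm_num, by norm_num⟩

lemma bump_nonneg (y : ℝ) : 0 ≤ bump y := bump.nonneg

lemma bump_le_one (y : ℝ) : bump y ≤ 1 := bump.le_one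

lemma bump_eq_one {y : ℝ} (hy : |y| ≤ 1 / 8) : bump y = 1 :=
  bump.one_of_mem_closedBall (by simpa [Metric.mem_closedBall, Real.dist_eq, bump] using hy)

lemma bump_eq_zero {y : ℝ} (hy : 1 / 4 ≤ |y|) : bump y = 0 :=
  bump.zero_of_le_dist (by simpa [Real.dist_eq, bump] using hy)

/-- Sum of translated bumps at the points of a finite set of integers. -/
noncomputable def comb (E : Finset ℤ) (y : ℝ) : ℝ := ∑ a ∈ E, bump (y - a)

lemma comb_nonneg (E : Finset ℤ) (y : ℝ) : 0 ≤ comb E y :=
  Finset.sum_nonneg fun _ _ => bump_nonneg _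

lemma exists_of_comb_ne_zero {E : Finset ℤ} {y : ℝ} (h : comb E y ≠ 0) :
    ∃ a ∈ E, |y - a| < 1 / 4 := by
  by_contra hcon
  push Not at hcon
  exact h (Finset.sum_eq_zero fun a ha => bump_eq_zero (hcon a ha))

lemma comb_le_one (E : Finset ℤ) (y : ℝ) : comb E y ≤ 1 := by
  by_cases h : comb E y = 0
  · rw [h]; exact zero_le_one
  · obtain ⟨a, ha, hay⟩ := exists_of_comb_ne_zero h
    have : comb E y = bump (y - a) := by
      refine Finset.sum_eq_single a (fun b hb hba => bump_eq_zero ?_) (fun h' => absurd ha h')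
      have hne : (1 : ℝ) ≤ |(a : ℝ) - b| := by
        have h1 : a - b ≠ 0 := sub_ne_zero.mpr (Ne.symm hba)
        have h2 : (1 : ℤ) ≤ |a - b| := Int.one_le_abs h1
        exact_mod_cast h2
      by_contra hlt
      push Not at hlt
      have htri : |(a : ℝ) - b| ≤ |y - a| + |y - b| := by
        have : (a : ℝ) - b = (y - b) - (y - a) := by ring
        rw [this]
        calc |(y - b) - (y - a)| ≤ |y - b| + |y - a| := abs_sub _ _
          _ = _ := add_comm _ _
      linarith
    rw [this]
    exact bump_le_one _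

lemma one_le_comb {E : Finset ℤ} {y : ℝ} {a : ℤ} (ha : a ∈ E) (hy : |y - a| ≤ 1 / 8) :
    1 ≤ comb E y := by
  have h1 : bump (y - a) ≤ comb E y :=
    Finset.single_le_sum (f := fun b : ℤ => bump (y - b)) (fun _ _ => bump_nonneg _) ha
  rwa [bump_eq_one hy] at h1

lemma comb_contDiff (E : Finset ℤ) : ContDiff ℝ ∞ (comb E) := by
  unfold comb
  refine ContDiff.sum fun a _ => ?_
  exact bump.contDiff.comp (contDiff_id.sub contDiff_const)

lemma comb_continuous (E : Finset ℤ) : Continuous (comb E) :=
  (comb_contDiff E).continuous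

lemma comb_hasCompactSupport (E : Finset ℤ) : HasCompactSupport (comb E) := by
  classical
  induction E using Finset.induction_on with
  | empty =>
    have : comb ∅ = 0 := by ext y; simp [comb]
    rw [this]; exact HasCompactSupport.zero
  | insert a s ha ih =>
    have : comb (insert a s) = (fun y => bump (y - a)) + comb s := by
      ext y; simp [comb, Finset.sum_insert ha]
    rw [this]
    refine HasCompactSupport.add ?_ ih
    have hb : HasCompactSupport (bump : ℝ → ℝ) := bump.hasCompactSupport
    exact hb.comp_homeomorph (Homeomorph.subRight (a : ℝ))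

/-- The complex-valued Schwartz function attached to `comb E`. -/
noncomputable def combS (E : Finset ℤ) : 𝓢(ℝ, ℂ) :=
  HasCompactSupport.toSchwartzMap (f := fun y => ((comb E y : ℝ) : ℂ))
    ((comb_hasCompactSupport E).comp_left (g := fun r : ℝ => (r : ℂ)) (by simp))
    (Complex.ofRealCLM.contDiff.comp (comb_contDiff E))

@[simp] lemma combS_apply (E : Finset ℤ) (y : ℝ) : combS E y = (comb E y : ℂ) := rfl

/-- Upper bound for the `L^p` norm of `combS E`. -/
lemma eLpNorm_combS_le (E : Finset ℤ) {p : ℝ≥0∞} (hp0 : p ≠ 0) (hp : p ≠ ⊤) :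
    eLpNorm (combS E) p volume ≤ (E.card : ℝ≥0∞) ^ (1 / p.toReal) := by
  classical
  set V : Set ℝ := ⋃ a ∈ E, Metric.ball (a : ℝ) (1 / 4) with hV
  have hVm : MeasurableSet V :=
    Finset.measurableSet_biUnion _ fun a _ => Metric.isOpen_ball.measurableSet
  have hmono : ∀ y, ‖combS E y‖ ≤ ‖V.indicator (fun _ => (1 : ℝ)) y‖ := by
    intro y
    by_cases hy : y ∈ V
    · rw [indicator_of_mem hy, combS_apply, Complex.norm_real]
      simp only [norm_one, Real.norm_eq_abs, abs_of_nonneg (comb_nonneg E y)]
      exact comb_le_one E y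
    · have : comb E y = 0 := by
        by_contra hne
        obtain ⟨a, ha, hay⟩ := exists_of_comb_ne_zero hne
        exact hy (mem_biUnion ha (by simpa [Metric.mem_ball, Real.dist_eq] using hay))
      simp [this, indicator_of_notMem hy]
  have h1 : eLpNorm (combS E) p volume ≤ eLpNorm (V.indicator (fun _ => (1 : ℝ))) p volume :=
    eLpNorm_mono hmono
  refine h1.trans ?_
  rw [eLpNorm_indicator_const hVm hp0 hp]
  simp only [enorm_one, one_mul]
  have hpos : 0 ≤ 1 / p.toReal := by positivity
  refine ENNReal.rpow_le_rpow ?_ hpos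
  calc volume V ≤ ∑ a ∈ E, volume (Metric.ball (a : ℝ) (1 / 4)) :=
        measure_biUnion_finset_le _ _
    _ ≤ ∑ a ∈ E, (1 : ℝ≥0∞) := by
        refine Finset.sum_le_sum fun a _ => ?_
        rw [Real.volume_ball]
        rw [← ENNReal.ofReal_one]
        exact ENNReal.ofReal_le_ofReal (by norm_num)
    _ = (E.card : ℝ≥0∞) := by simp

end Vale.Agent.P141
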